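import Vale.Agent.P037.Host

/-!
Every matrix close to the host contains a copy of the pattern.
-/

namespace Vale.Agent.P037

open Finset
open scoped Classical

def fg (h g : ℕ) : Fin (GG h) := ⟨g % GG h, Nat.mod_lt _ (by unfold GG; omega)⟩

lemma fg_val {h g : ℕ} (hg : g < FF h + h + 2) : (fg h g).val = g := Nat.mod_eq_of_lt hg

instance neZeroPow (h : ℕ) : NeZero (2 ^ h) := ⟨by positivity⟩

def freeC (h g : ℕ) : Prop := g ≤ FF h ∨ g = FF h + h + 1

noncomputable def rowOf {h : ℕ} (a b : Fin (2 ^ h)) (g : Fin (GG h)) : T h :=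
  (g, if g.val < FF h then b else a)

noncomputable def colOf {h : ℕ} (a b : Fin (2 ^ h)) (g : Fin (GG h)) : T h :=
  (g, if freeC h g.val then a + b else Fin.rev a)

lemma exists_intact {h : ℕ} (B : T h → T h → Bool)
    (hB : (univ.filter fun p : T h × T h => A0 p.1 p.2 ≠ B p.1 p.2).card < 2 ^ h * 2 ^ h) :
    ∃ a b : Fin (2 ^ h), ∀ g g' : Fin (GG h), (g.val < FF h ∨ freeC h g'.val) →
      B (rowOf a b g) (colOf a b g') = A0 (rowOf a b g) (colOf a b g') := by
  by_contra hcon
  push Not at hcon
  choose g g' hp hne using hcon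
  have : (univ : Finset (Fin (2 ^ h) × Fin (2 ^ h))).card ≤
      (univ.filter fun p : T h × T h => A0 p.1 p.2 ≠ B p.1 p.2).card := by
    apply card_le_card_of_injOn
      (fun q => (rowOf q.1 q.2 (g q.1 q.2), colOf q.1 q.2 (g' q.1 q.2)))
    · intro q _
      simp only [coe_filter, mem_univ, true_and, Set.mem_ofPred_eq]
      exact (hne q.1 q.2).symm
    · rintro ⟨a, b⟩ _ ⟨a', b'⟩ _ e
      simp only [rowOf, colOf, Prod.mk.injEq] at e
      obtain ⟨⟨e1, e2⟩, e3, e4⟩ := e
      have hp1 := hp a b
      rw [← e1] at e2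
      rw [← e3] at e4
      by_cases c1 : (g a b).val < FF h <;> by_cases c2 : freeC h (g' a b).val
      · rw [if_pos c1, if_pos c1] at e2
        rw [if_pos c2, if_pos c2, e2] at e4
        rw [add_right_cancel e4, e2]
      · rw [if_pos c1, if_pos c1] at e2
        rw [if_neg c2, if_neg c2] at e4
        rw [Fin.rev_injective e4, e2]
      · rw [if_neg c1, if_neg c1] at e2
        rw [if_pos c2, if_pos c2, e2] at e4
        rw [add_left_cancel e4, e2]
      · tauto
  rw [card_univ, Fintype.card_prod, Fintype.card_fin] at this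
  omega

lemma exists_drop (z : ℕ → Bool) (N : ℕ) (h0 : z 0 = true) (hN : z N = false) :
    ∃ j < N, z j = true ∧ z (j + 1) = false := by
  induction N with
  | zero => rw [h0] at hN; exact absurd hN (by simp)
  | succ n ih =>
    cases hz : z n
    · obtain ⟨j, hj, e⟩ := ih hz
      exact ⟨j, by omega, e⟩
    · exact ⟨n, by omega, hz, hN⟩

def rg (h μ u : ℕ) : ℕ :=
  if u < 24 ∨ (u = 24 ∧ μ / 2 % 2 = 0) then 25 * μ + u
  else if u = 24 then FF h + μ / 2 / 2 else FF h + (μ / 2 + 1) / 2

def cg (h μ v : ℕ) : ℕ :=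
  if v < 24 ∨ (v = 24 ∧ μ / 2 % 2 = 1) then 25 * μ + v
  else if v = 24 then FF h + μ / 2 / 2 else FF h + μ / 2 / 2 + 1

lemma far {h : ℕ} (B : T h → T h → Bool)
    (hB : (univ.filter fun p : T h × T h => A0 p.1 p.2 ≠ B p.1 p.2).card < 2 ^ h * 2 ^ h) :
    ∃ ρ γ : ℕ → T h, Copy0 B ρ γ := by
  obtain ⟨a, b, hab⟩ := exists_intact B hB
  have hrev : (Fin.rev a).val = 2 ^ h - 1 - a.val := by rw [Fin.val_rev]; omega
  let z : ℕ → Bool := fun j =>
    B (rowOf a b (fg h (FF h + j / 2))) (colOf a b (fg h (FF h + (j + 1) / 2)))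
  have z0 : z 0 = true := by
    simp only [z]
    have e : (fg h (FF h + 0 / 2)).val = FF h := by rw [fg_val (by omega)]; omega
    have e' : (fg h (FF h + (0 + 1) / 2)).val = FF h := by rw [fg_val (by omega)]; omega
    rw [hab _ _ (Or.inr (Or.inl (by omega)))]
    simp only [A0, rowOf, colOf, e]
    rw [ent_var (by omega) (by omega)]
    exact ⟨by omega, Or.inl ⟨rfl, by simpa using Z_zero _ _ _⟩⟩
  have zN : z (2 * h + 1) = false := by
    simp only [z]
    have e : (fg h (FF h + (2 * h + 1) / 2)).val = FF h + h := by rw [fg_val (by omega)]; omega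
    have e' : (fg h (FF h + (2 * h + 1 + 1) / 2)).val = FF h + h + 1 := by
      rw [fg_val (by omega)]; omega
    rw [hab _ _ (Or.inr (Or.inr e'))]
    by_contra hc
    have hc' := Bool.of_not_eq_false hc
    unfold A0 at hc'
    simp only [rowOf, colOf, e, e'] at hc'
    rw [ent_var (by omega) (by omega)] at hc'
    rcases hc' with ⟨_, ⟨h1, _⟩ | ⟨_, h2⟩⟩
    · omega
    · have : 2 * (FF h + h - FF h) + 1 = 2 * h + 1 := by omega
      rw [this] at h2
      exact Z_last (Fin.isLt _) (Fin.isLt _) h2
  obtain ⟨j, hj, zj, zj1⟩ := exists_drop z _ z0 zN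
  obtain ⟨μ, hμ, c0, c1⟩ : ∃ μ, μ / 2 = j ∧ (μ % 2 = 0 → cond h j a.val) ∧
      (μ % 2 = 1 → cond h j (2 ^ h - 1 - a.val)) := by
    rcases cond_compl (h := h) (j := j) (by omega) a.isLt with hc | hc
    · exact ⟨2 * j, by omega, fun _ => hc, fun _ => by omega⟩
    · exact ⟨2 * j + 1, by omega, fun _ => by omega, fun _ => hc⟩
  have hF : FF h = 50 * (2 * h + 1) := rfl
  have rgv : ∀ u < 26, (fg h (rg h μ u)).val = rg h μ u := by
    intro u hu; apply fg_val; unfold rg; split_ifs <;> omega
  have cgv : ∀ u < 26, (fg h (cg h μ u)).val = cg h μ u := by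
    intro u hu; apply fg_val; unfold cg; split_ifs <;> omega
  have lR : ∀ u < 26, labR h μ (rg h μ u) (rowOf a b (fg h (rg h μ u))).2.val = u := by
    intro u hu
    simp only [rowOf, rgv u hu]
    by_cases h1 : u < 24 ∨ (u = 24 ∧ μ / 2 % 2 = 0)
    · have e : rg h μ u = 25 * μ + u := by unfold rg; rw [if_pos h1]
      unfold labR
      rw [e, if_pos (by omega), if_pos (by omega)]
      omega
    · by_cases h2 : u = 24
      · have e : rg h μ u = FF h + μ / 2 / 2 := by unfold rg; rw [if_neg h1, if_pos h2]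
        unfold labR
        rw [e, if_neg (by omega), if_neg (by omega : ¬ FF h + μ / 2 / 2 < FF h),
          if_pos ⟨by omega, rfl, fun h3 _ => hμ ▸ c0 h3⟩]
        omega
      · have e : rg h μ u = FF h + (μ / 2 + 1) / 2 := by unfold rg; rw [if_neg h1, if_neg h2]
        unfold labR
        rw [e, if_neg (by omega), if_neg (by omega : ¬ FF h + (μ / 2 + 1) / 2 < FF h),
          if_neg (by omega), if_pos ⟨rfl, fun h3 _ => hμ ▸ c0 h3⟩]
        omega
  have lC : ∀ u < 26, labC h μ (cg h μ u) (colOf a b (fg h (cg h μ u))).2.val = u := by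
    intro u hu
    simp only [colOf, cgv u hu]
    by_cases h1 : u < 24 ∨ (u = 24 ∧ μ / 2 % 2 = 1)
    · have e : cg h μ u = 25 * μ + u := by unfold cg; rw [if_pos h1]
      unfold labC
      rw [e, if_pos (by omega), if_pos (by omega)]
      omega
    · by_cases h2 : u = 24
      · have e : cg h μ u = FF h + μ / 2 / 2 := by unfold cg; rw [if_neg h1, if_pos h2]
        have hc : μ % 2 = 1 → h < μ / 2 →
            cond h (μ / 2) (if freeC h (FF h + μ / 2 / 2) then a + b else Fin.rev a).val := by
          intro h3 h4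
          rw [if_neg (by unfold freeC; omega), hrev, hμ]
          exact c1 h3
        unfold labC
        rw [e, if_neg (by omega), if_pos ⟨by omega, rfl, hc⟩]
        omega
      · have e : cg h μ u = FF h + μ / 2 / 2 + 1 := by unfold cg; rw [if_neg h1, if_neg h2]
        have hc : μ % 2 = 1 → (μ / 2 % 2 = 1 ∨ μ / 2 < h) →
            cond h (μ / 2) (if freeC h (FF h + μ / 2 / 2 + 1) then a + b else Fin.rev a).val := by
          intro h3 h4
          rw [if_neg (by unfold freeC; omega), hrev, hμ]
          exact c1 h3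
        unfold labC
        rw [e, if_neg (by omega), if_neg (by omega), if_pos ⟨rfl, hc⟩]
        omega
  refine ⟨fun u => rowOf a b (fg h (rg h μ u)), fun v => colOf a b (fg h (cg h μ v)), ?_, ?_, ?_⟩
  · intro u u' h1 h2
    rw [keyR_lt]
    simp only [rowOf, rgv u (by omega), rgv u' h2]
    unfold rg
    split_ifs <;> omega
  · intro u u' h1 h2
    rw [keyC_lt]
    simp only [colOf, cgv u (by omega), cgv u' h2]
    unfold cg freeC
    split_ifs <;> omega
  · intro u hu v hv
    by_cases h1 : rg h μ u < FF h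
    · beta_reduce
      rw [hab _ _ (Or.inl (by rw [rgv u hu]; exact h1))]
      have e : rg h μ u / 25 = μ := by
        revert h1; unfold rg; split_ifs <;> omega
      have l1 := lR u hu
      have l2 := lC v hv
      unfold A0
      simp only [rowOf, colOf, rgv u hu, cgv v hv] at l1 l2 ⊢
      rw [ent_fixR h1, e, l1, l2]
    · by_cases h2 : cg h μ v < FF h
      · beta_reduce
        rw [hab _ _ (Or.inr (Or.inl (by rw [cgv v hv]; exact h2.le)))]
        have e : cg h μ v / 25 = μ := by
          revert h2; unfold cg; split_ifs <;> omega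
        have l1 := lR u hu
        have l2 := lC v hv
        unfold A0
        simp only [rowOf, colOf, rgv u hu, cgv v hv] at l1 l2 ⊢
        rw [ent_fixC h2, e, l1, l2]
      · beta_reduce
        have hu' : (u = 24 ∧ j % 2 = 1) ∨ u = 25 := by
          revert h1; unfold rg; split_ifs <;> omega
        have hv' : (v = 24 ∧ j % 2 = 0) ∨ v = 25 := by
          revert h2; unfold cg; split_ifs <;> omega
        simp only [z] at zj zj1
        rcases hu' with ⟨rfl, hp⟩ | rfl <;> rcases hv' with ⟨rfl, hq⟩ | rfl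
        · omega
        · have e1 : rg h μ 24 = FF h + j / 2 := by unfold rg; split_ifs <;> omega
          have e2 : cg h μ 25 = FF h + (j + 1) / 2 := by unfold cg; split_ifs <;> omega
          rw [e1, e2, zj, Hn_2425]
        · have e1 : rg h μ 25 = FF h + j / 2 := by unfold rg; split_ifs <;> omega
          have e2 : cg h μ 24 = FF h + (j + 1) / 2 := by unfold cg; split_ifs <;> omega
          rw [e1, e2, zj, Hn_2524]
        · have e1 : rg h μ 25 = FF h + (j + 1) / 2 := by unfold rg; split_ifs <;> omega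
          have e2 : cg h μ 25 = FF h + (j + 1 + 1) / 2 := by unfold cg; split_ifs <;> omega
          rw [e1, e2, zj1, Hn_2525]

end Vale.Agent.P037
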