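import Vale.Agent.P037.Stair

/-!
The host matrix: it has few copies of the pattern but is far from being pattern-free.
-/

namespace Vale.Agent.P037

open scoped Classical

def GG (h : ℕ) : ℕ := FF h + h + 2

abbrev T (h : ℕ) := Fin (GG h) × Fin (2 ^ h)

abbrev Key := Lex (ℕ × Lex (ℕ × ℕ))

def mkKey (a b c : ℕ) : Key := toLex (a, toLex (b, c))

lemma mkKey_lt {a b c a' b' c' : ℕ} : mkKey a b c < mkKey a' b' c' ↔
    a < a' ∨ (a = a' ∧ (b < b' ∨ (b = b' ∧ c < c'))) := by
  simp [mkKey, Prod.Lex.toLex_lt_toLex]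

lemma mkKey_eq {a b c a' b' c' : ℕ} (h : mkKey a b c = mkKey a' b' c') :
    a = a' ∧ b = b' ∧ c = c' := by
  simpa [mkKey] using h

def keyR {h : ℕ} (x : T h) : Key :=
  if x.1.val < FF h then mkKey 0 x.1.val x.2.val else mkKey 1 x.2.val x.1.val

def keyC {h : ℕ} (x : T h) : Key :=
  if x.1.val ≤ FF h then mkKey 0 x.1.val x.2.val
  else if x.1.val < FF h + h + 1 then mkKey 1 x.2.val x.1.val else mkKey 2 x.1.val x.2.val

lemma keyR_inj {h : ℕ} : Function.Injective (keyR (h := h)) := by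
  intro x y e
  unfold keyR at e
  split_ifs at e <;> have := mkKey_eq e <;>
    exact Prod.ext (Fin.ext (by omega)) (Fin.ext (by omega))

lemma keyC_inj {h : ℕ} : Function.Injective (keyC (h := h)) := by
  intro x y e
  unfold keyC at e
  split_ifs at e <;> have := mkKey_eq e <;>
    exact Prod.ext (Fin.ext (by omega)) (Fin.ext (by omega))

lemma keyR_lt {h : ℕ} {x y : T h} : keyR x < keyR y ↔
    (x.1.val < FF h ∧ (y.1.val < FF h → x.1.val < y.1.val ∨ (x.1.val = y.1.val ∧ x.2.val < y.2.val)))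
    ∨ (¬ x.1.val < FF h ∧ ¬ y.1.val < FF h ∧
      (x.2.val < y.2.val ∨ (x.2.val = y.2.val ∧ x.1.val < y.1.val))) := by
  unfold keyR
  split_ifs <;> rw [mkKey_lt] <;> omega

lemma keyC_lt {h : ℕ} {x y : T h} : keyC x < keyC y ↔
    (x.1.val ≤ FF h ∧ (y.1.val ≤ FF h → x.1.val < y.1.val ∨ (x.1.val = y.1.val ∧ x.2.val < y.2.val)))
    ∨ (FF h < x.1.val ∧ x.1.val < FF h + h + 1 ∧ FF h < y.1.val ∧ (y.1.val < FF h + h + 1 →
      (x.2.val < y.2.val ∨ (x.2.val = y.2.val ∧ x.1.val < y.1.val))))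
    ∨ (FF h + h + 1 ≤ x.1.val ∧ FF h + h + 1 ≤ y.1.val ∧
      (x.1.val < y.1.val ∨ (x.1.val = y.1.val ∧ x.2.val < y.2.val))) := by
  unfold keyC
  split_ifs <;> rw [mkKey_lt] <;> omega

noncomputable def A0 {h : ℕ} (x y : T h) : Bool := ent h x.1.val x.2.val y.1.val y.2.val

def Copy0 {h : ℕ} (B : T h → T h → Bool) (ρ γ : ℕ → T h) : Prop :=
  (∀ u u', u < u' → u' < 26 → keyR (ρ u) < keyR (ρ u')) ∧
  (∀ u u', u < u' → u' < 26 → keyC (γ u) < keyC (γ u')) ∧
  ∀ u < 26, ∀ v < 26, B (ρ u) (γ v) = Hn u v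

lemma labels_of_copy {h : ℕ} {ρ γ : ℕ → T h} (hc : Copy0 A0 ρ γ) : ∃ μ, μ / 2 ≤ 2 * h ∧
    labR h μ (ρ 24).1.val (ρ 24).2.val = 24 ∧ labR h μ (ρ 25).1.val (ρ 25).2.val = 25 ∧
    labC h μ (γ 24).1.val (γ 24).2.val = 24 ∧ labC h μ (γ 25).1.val (γ 25).2.val = 25 := by
  obtain ⟨hR, hC, hA⟩ := hc
  have ordR : ∀ u u', u < u' → u' < 26 → (ρ u').1.val < FF h → (ρ u).1.val < FF h := by
    intro u u' h1 h2 h3
    have := keyR_lt.mp (hR u u' h1 h2)
    omega
  have ordC : ∀ u u', u < u' → u' < 26 → (γ u').1.val < FF h → (γ u).1.val < FF h := by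
    intro u u' h1 h2 h3
    have := keyC_lt.mp (hC u u' h1 h2)
    omega
  have f17 : (ρ 17).1.val < FF h := by
    refine fixed17 (A0 (h := h)) (fun x => x.1.val < FF h) (fun y => color h y.1.val)
      (fun y => color_lt _ _) ?_ ρ γ ordR hA
    intro x hx y y' e1 e2 hcol
    have hg := same_groupC hx e1 e2 hcol
    rcases le_total y.2.val y'.2.val with ht | ht
    · left; intro x' hx' e
      unfold A0 at e ⊢
      rw [← hg]; exact ent_monoC hx' ht e
    · right; intro x' hx' e
      unfold A0 at e ⊢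
      rw [hg]; exact ent_monoC hx' ht e
  have g17 : (γ 17).1.val < FF h := by
    refine fixed17 (fun y x => A0 (h := h) x y) (fun x => x.1.val < FF h) (fun y => color h y.1.val)
      (fun y => color_lt _ _) ?_ γ ρ ordC (fun u hu v hv => by rw [hA v hv u hu, Hn_symm])
    intro x hx y y' e1 e2 hcol
    have hg := same_groupR hx e1 e2 hcol
    rcases le_total y.2.val y'.2.val with ht | ht
    · left; intro x' hx' e
      unfold A0 at e ⊢
      rw [← hg]; exact ent_monoR hx' ht e
    · right; intro x' hx' e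
      unfold A0 at e ⊢
      rw [hg]; exact ent_monoR hx' ht e
  have fR : ∀ u < 18, (ρ u).1.val < FF h := by
    intro u hu
    rcases Nat.lt_or_ge u 17 with h1 | h1
    · exact ordR u 17 h1 (by omega) f17
    · have : u = 17 := by omega
      rw [this]; exact f17
  have fC : ∀ u < 18, (γ u).1.val < FF h := by
    intro u hu
    rcases Nat.lt_or_ge u 17 with h1 | h1
    · exact ordC u 17 h1 (by omega) g17
    · have : u = 17 := by omega
      rw [this]; exact g17
  have lR : ∀ μ (x : T h), labR h μ x.1.val x.2.val < 24 → x.1.val < FF h := by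
    intro μ x hl
    by_contra hx
    have := labR_var hx (by omega : labR h μ x.1.val x.2.val < 26)
    omega
  have lC : ∀ μ (x : T h), labC h μ x.1.val x.2.val < 24 → x.1.val < FF h := by
    intro μ x hl
    by_contra hx
    have := labC_var hx (by omega : labC h μ x.1.val x.2.val < 26)
    omega
  have := rigid (A0 (h := h)) (fun x => x.1.val < FF h) (fun x => x.1.val < FF h)
    (fun x => x.1.val / 25) (fun x => x.1.val / 25)
    (fun μ x => labR h μ x.1.val x.2.val) (fun μ x => labC h μ x.1.val x.2.val)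
    (fun x y hx => ent_fixR hx _ _ _) (fun x y hy => ent_fixC hy _ _ _)
    (fun μ x hx hl => (labR_fix hx hl).1) (fun μ x hx hl => (labC_fix hx hl).1)
    lR lC ρ γ ?_ ?_ fR fC hA
  · refine ⟨(ρ 0).1.val / 25, ?_, this⟩
    have := fR 0 (by omega)
    unfold FF at this
    omega
  · intro μ u u' h1 h2 l1 l2
    have a1 := labR_fix (lR μ _ l1) (by omega : labR h μ (ρ u).1.val (ρ u).2.val < 26)
    have a2 := labR_fix (lR μ _ l2) (by omega : labR h μ (ρ u').1.val (ρ u').2.val < 26)
    have a3 := keyR_lt.mp (hR u u' h1 h2)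
    have a4 := lR μ _ l1
    have a5 := lR μ _ l2
    omega
  · intro μ u u' h1 h2 l1 l2
    have a1 := labC_fix (lC μ _ l1) (by omega : labC h μ (γ u).1.val (γ u).2.val < 26)
    have a2 := labC_fix (lC μ _ l2) (by omega : labC h μ (γ u').1.val (γ u').2.val < 26)
    have a3 := keyC_lt.mp (hC u u' h1 h2)
    have a4 := lC μ _ l1
    have a5 := lC μ _ l2
    omega

lemma few {h : ℕ} (hh : h % 2 = 0) (hpos : 0 < h) {ρ γ : ℕ → T h} (hc : Copy0 A0 ρ γ) :
    (γ 25).1.val = FF h + h / 2 + 1 ∧ (ρ 25).2.val + (γ 25).2.val + 1 = 2 ^ h := by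
  obtain ⟨μ, hμ, r24, r25, c24, c25⟩ := labels_of_copy hc
  obtain ⟨hR, hC, hA⟩ := hc
  have vr : ¬ (ρ 25).1.val < FF h := fun hx => by
    have := labR_fix (μ := μ) (s := (ρ 25).2.val) hx (by omega); omega
  have vc : ¬ (γ 25).1.val < FF h := fun hx => by
    have := labC_fix (μ := μ) (s := (γ 25).2.val) hx (by omega); omega
  have e55 := hA 25 (by omega) 25 (by omega)
  have e54 := hA 25 (by omega) 24 (by omega)
  have e45 := hA 24 (by omega) 25 (by omega)
  rw [Hn_2525] at e55
  rw [Hn_2524] at e54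
  rw [Hn_2425] at e45
  unfold A0 at e55 e54 e45
  have n55 : ¬ _ := fun hx => by
    have := (ent_var (h := h) vr vc (ρ 25).2.val (γ 25).2.val).mpr hx
    rw [e55] at this; exact absurd this (by simp)
  have kR := keyR_lt.mp (hR 24 25 (by omega) (by omega))
  have kC := keyC_lt.mp (hC 24 25 (by omega) (by omega))
  have R5 := labR_var (μ := μ) (s := (ρ 25).2.val) vr (by omega)
  have C5 := labC_var (μ := μ) (s := (γ 25).2.val) vc (by omega)
  rcases R5 with ⟨a, _⟩ | ⟨_, gR5, cR5⟩
  · omega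
  rcases C5 with ⟨a, _⟩ | ⟨_, gC5, cC5⟩
  · omega
  have ls := (ρ 25).2.isLt
  have lt5 := (γ 25).2.isLt
  set j := μ / 2 with hj
  by_cases hpar : j % 2 = 0
  · have vc4 : ¬ (γ 24).1.val < FF h := fun hx => by
      have := labC_fix (μ := μ) (s := (γ 24).2.val) hx (by omega); omega
    have C4 := labC_var (μ := μ) (s := (γ 24).2.val) vc4 (by omega)
    rcases C4 with ⟨_, _, gC4, cC4⟩ | ⟨a, _⟩
    swap
    · omega
    rw [ent_var vr vc4] at e54
    have z1 : Z h j (ρ 25).2.val (γ 24).2.val := by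
      rcases e54 with ⟨_, ⟨_, z⟩ | ⟨_, _⟩⟩
      · have : 2 * ((ρ 25).1.val - FF h) = j := by omega
        rwa [this] at z
      · omega
    have z2 : ¬ Z h (j + 1) (ρ 25).2.val (γ 25).2.val := fun z => by
      apply n55
      refine ⟨by omega, Or.inr ⟨by omega, ?_⟩⟩
      have : 2 * ((ρ 25).1.val - FF h) = j := by omega
      rwa [this]
    rcases lt_trichotomy j h with h1 | h1 | h1
    · exfalso
      apply z2
      have z3 : Z h j (ρ 25).2.val (γ 25).2.val := by
        rcases Nat.eq_zero_or_pos j with h0 | h0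
        · rw [h0]; exact Z_zero _ _ _
        · exact Z_mono le_rfl (by omega) z1
      refine Z_step (by omega) hμ z3 ?_
      rcases Nat.mod_two_eq_zero_or_one μ with h2 | h2
      · exact Or.inl (cR5 h2 (Or.inl hpar))
      · exact Or.inr (cC5 h2 (Or.inr h1))
    · refine ⟨by omega, ?_⟩
      rw [h1] at z1 z2
      exact Z_mid (by omega) z1 z2
    · exfalso
      have z3 : Z h (j + 1) (ρ 25).2.val (γ 24).2.val := by
        refine Z_step (by omega) hμ z1 ?_
        rcases Nat.mod_two_eq_zero_or_one μ with h2 | h2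
        · exact Or.inl (cR5 h2 (Or.inl hpar))
        · exact Or.inr (cC4 h2 h1)
      rcases Nat.lt_or_ge j (2 * h) with h0 | h0
      · exact z2 (Z_mono le_rfl (by omega) z3)
      · have : j + 1 = 2 * h + 1 := by omega
        rw [this] at z3
        exact Z_last ls (γ 24).2.isLt z3
  · exfalso
    have vr4 : ¬ (ρ 24).1.val < FF h := fun hx => by
      have := labR_fix (μ := μ) (s := (ρ 24).2.val) hx (by omega); omega
    have R4 := labR_var (μ := μ) (s := (ρ 24).2.val) vr4 (by omega)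
    rcases R4 with ⟨_, _, gR4, cR4⟩ | ⟨a, _⟩
    swap
    · omega
    rw [ent_var vr4 vc] at e45
    have z1 : Z h j (ρ 24).2.val (γ 25).2.val := by
      rcases e45 with ⟨_, ⟨_, _⟩ | ⟨_, z⟩⟩
      · omega
      · have : 2 * ((ρ 24).1.val - FF h) + 1 = j := by omega
        rwa [this] at z
    have z2 : ¬ Z h (j + 1) (ρ 25).2.val (γ 25).2.val := fun z => by
      apply n55
      refine ⟨by omega, Or.inl ⟨by omega, ?_⟩⟩
      have : 2 * ((ρ 25).1.val - FF h) = j + 1 := by omega
      rwa [this]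
    have hs : (ρ 24).2.val ≤ (ρ 25).2.val := by omega
    apply z2
    rcases lt_trichotomy j h with h1 | h1 | h1
    · refine Z_step (by omega) hμ (Z_mono hs le_rfl z1) ?_
      rcases Nat.mod_two_eq_zero_or_one μ with h2 | h2
      · exact Or.inl (cR5 h2 (Or.inr h1))
      · exact Or.inr (cC5 h2 (Or.inl (by omega)))
    · omega
    · refine Z_mono hs le_rfl (Z_step (by omega) hμ z1 ?_)
      rcases Nat.mod_two_eq_zero_or_one μ with h2 | h2
      · exact Or.inl (cR4 h2 h1)
      · exact Or.inr (cC5 h2 (Or.inl (by omega)))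

end Vale.Agent.P037
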