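import Mathlib

/-!
The fixed 26 by 26 pattern and the abstract rigidity argument.
-/

namespace Vale.Agent.P037

def masks : List ℕ := [33554431, 34530239, 1475703, 2552451, 4632391, 8863207, 1791093, 2816939,
  4972467, 9128859, 3330421, 5426097, 9631209, 6525115, 10674123, 12844447, 3253089, 16580607,
  5898303, 8258499, 15670341, 5989513, 4106513, 9622049, 33554433, 16777218]

/-- the pattern, extended by `false` outside `[0,26) × [0,26)` -/
def Hn (u v : ℕ) : Bool := decide (v < 26) && (masks.getD u 0).testBit v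

lemma Hn_lt_right {u v : ℕ} (h : Hn u v = true) : v < 26 := by
  simp only [Hn, Bool.and_eq_true, decide_eq_true_eq] at h; exact h.1

lemma Hn_lt_left {u v : ℕ} (h : Hn u v = true) : u < 26 := by
  by_contra hu
  have : masks.getD u 0 = 0 := List.getD_eq_default _ _ (by simp [masks]; omega)
  unfold Hn at h
  rw [this] at h
  simp at h

lemma Hn_symm' : ∀ u < 26, ∀ v < 26, Hn u v = Hn v u := by decide +kernel

lemma Hn_symm (u v : ℕ) : Hn u v = Hn v u := by
  by_cases hu : u < 26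
  · by_cases hv : v < 26
    · exact Hn_symm' u hu v hv
    · have h1 : Hn u v = false := by
        by_contra h; exact hv (Hn_lt_right (by simpa using h))
      have h2 : Hn v u = false := by
        by_contra h; exact hv (Hn_lt_left (by simpa using h))
      rw [h1, h2]
  · have h1 : Hn u v = false := by
      by_contra h; exact hu (Hn_lt_left (by simpa using h))
    have h2 : Hn v u = false := by
      by_contra h; exact hu (Hn_lt_right (by simpa using h))
    rw [h1, h2]

lemma Hn_zero : ∀ v < 25, Hn 0 v = true := by decide +kernel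
lemma Hn_dist18 : ∀ v < 18, ∀ v' < 18, (∀ u < 18, Hn u v = Hn u v') → v = v' := by
  decide +kernel
lemma Hn_dist24 : ∀ u < 26, ∀ u' < 26, (∀ v < 24, Hn u v = Hn u' v) → u = u' := by
  decide +kernel
lemma Hn_three : ∀ u < 24, ∃ a < 18, ∃ b < 18, 0 < a ∧ a < b ∧ Hn u 0 = true ∧ Hn u a = true ∧
    Hn u b = true := by decide +kernel
lemma Hn_24 : ∀ y < 26, Hn 24 y = true → y = 0 ∨ y = 25 := by decide +kernel
lemma Hn_25 : ∀ y < 26, Hn 25 y = true → y = 1 ∨ y = 24 := by decide +kernel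
lemma Hn_17 : ∀ v < 16, Hn 17 v = true := by decide +kernel
lemma Hn_anti' : ∀ v < 16, ∀ v' < 16, v = 0 ∨ v' = 0 ∨ v = v' ∨
    ∃ u < 24, 18 ≤ u ∧ Hn u v = true ∧ Hn u v' = false := by decide +kernel
lemma Hn_anti : ∀ v < 16, ∀ v' < 16, 0 < v → 0 < v' → v ≠ v' →
    ∃ u < 24, 18 ≤ u ∧ Hn u v = true ∧ Hn u v' = false := by
  intro v hv v' hv' h1 h2 h3
  rcases Hn_anti' v hv v' hv' with h | h | h | h
  · omega
  · omega
  · exact absurd h h3
  · exact h
lemma Hn_one : ∀ u < 26, ∃ v < 24, Hn u v = true := by decide +kernel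
lemma Hn_2524 : Hn 25 24 = true := by decide +kernel
lemma Hn_2425 : Hn 24 25 = true := by decide +kernel
lemma Hn_2525 : Hn 25 25 = false := by decide +kernel

section rigid
variable {X Y : Type}

/-- the seventeenth row of a copy is a fixed row -/
lemma fixed17 (A : X → Y → Bool) (fx : X → Prop) (col : Y → ℕ) (hcol : ∀ y, col y < 14)
    (hnest : ∀ x, ¬ fx x → ∀ y y', A x y = true → A x y' = true → col y = col y' →
      (∀ x', ¬ fx x' → A x' y = true → A x' y' = true) ∨
      (∀ x', ¬ fx x' → A x' y' = true → A x' y = true))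
    (ρ : ℕ → X) (γ : ℕ → Y) (hord : ∀ u u', u < u' → u' < 26 → fx (ρ u') → fx (ρ u))
    (hA : ∀ u < 26, ∀ v < 26, A (ρ u) (γ v) = Hn u v) : fx (ρ 17) := by
  by_contra h17
  have hvar : ∀ u, 17 < u → u < 26 → ¬ fx (ρ u) := fun u h1 h2 h => h17 (hord 17 u h1 h2 h)
  obtain ⟨v, hv, v', hv', hne, hc⟩ := Finset.exists_ne_map_eq_of_card_lt_of_maps_to
    (s := Finset.Ico 1 16) (t := Finset.range 14) (by simp) (f := fun v => col (γ v))
    (fun v _ => by simpa using hcol _)
  rw [Finset.mem_Ico] at hv hv'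
  have e1 : A (ρ 17) (γ v) = true := by rw [hA 17 (by omega) v (by omega)]; exact Hn_17 v hv.2
  have e2 : A (ρ 17) (γ v') = true := by rw [hA 17 (by omega) v' (by omega)]; exact Hn_17 v' hv'.2
  rcases hnest _ h17 _ _ e1 e2 hc with h | h
  · obtain ⟨u, hu, hu', h1, h2⟩ := Hn_anti v hv.2 v' hv'.2 hv.1 hv'.1 hne
    have := h (ρ u) (hvar u (by omega) (by omega)) (by rw [hA u (by omega) v (by omega)]; exact h1)
    rw [hA u (by omega) v' (by omega), h2] at this
    exact absurd this (by simp)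
  · obtain ⟨u, hu, hu', h1, h2⟩ := Hn_anti v' hv'.2 v hv.2 hv'.1 hv.1 (Ne.symm hne)
    have := h (ρ u) (hvar u (by omega) (by omega)) (by rw [hA u (by omega) v' (by omega)]; exact h1)
    rw [hA u (by omega) v (by omega), h2] at this
    exact absurd this (by simp)

lemma lab_lt24 (f g : ℕ → ℕ)
    (h : ∀ u < 26, ∀ v < 26, (u < 18 ∨ v < 18) → Hn (f u) (g v) = Hn u v) :
    ∀ u < 24, f u < 24 := by
  intro u hu
  have ginj : ∀ v < 18, ∀ v' < 18, g v = g v' → v = v' := by
    intro v hv v' hv' hg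
    apply Hn_dist18 v hv v' hv'
    intro w hw
    rw [← h w (by omega) v (by omega) (Or.inl hw), ← h w (by omega) v' (by omega) (Or.inl hw), hg]
  obtain ⟨a, ha, b, hb, h0a, hab, e0, ea, eb⟩ := Hn_three u hu
  rw [← h u (by omega) 0 (by omega) (Or.inr (by omega))] at e0
  rw [← h u (by omega) a (by omega) (Or.inr ha)] at ea
  rw [← h u (by omega) b (by omega) (Or.inr hb)] at eb
  have n1 : g 0 ≠ g a := fun hh => by have := ginj 0 (by omega) a ha hh; omega
  have n2 : g 0 ≠ g b := fun hh => by have := ginj 0 (by omega) b hb hh; omega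
  have n3 : g a ≠ g b := fun hh => by have := ginj a ha b hb hh; omega
  have hlt := Hn_lt_left e0
  by_contra hc
  have : f u = 24 ∨ f u = 25 := by omega
  rcases this with h4 | h4
  · rw [h4] at e0 ea eb
    have := Hn_24 _ (Hn_lt_right e0) e0
    have := Hn_24 _ (Hn_lt_right ea) ea
    have := Hn_24 _ (Hn_lt_right eb) eb
    omega
  · rw [h4] at e0 ea eb
    have := Hn_25 _ (Hn_lt_right e0) e0
    have := Hn_25 _ (Hn_lt_right ea) ea
    have := Hn_25 _ (Hn_lt_right eb) eb
    omega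

lemma lab_id (f g : ℕ → ℕ) (hf : ∀ u < 24, f u < 24)
    (hmono : ∀ u u', u < u' → u' < 24 → f u ≤ f u')
    (h : ∀ u < 24, ∀ v < 24, Hn (f u) (g v) = Hn u v) : ∀ u < 24, f u = u := by
  have hs : ∀ u, u + 1 < 24 → f u < f (u + 1) := by
    intro u hu
    refine lt_of_le_of_ne (hmono u (u + 1) (by omega) hu) fun he => ?_
    have := Hn_dist24 u (by omega) (u + 1) (by omega) (fun v hv => by
      rw [← h u (by omega) v hv, ← h (u + 1) hu v hv, he])
    omega
  have lo : ∀ u, u < 24 → u ≤ f u := by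
    intro u
    induction u with
    | zero => intro _; omega
    | succ n ih => intro hn; have := hs n hn; have := ih (by omega); omega
  have hi : ∀ i, i < 24 → f (23 - i) ≤ 23 - i := by
    intro i
    induction i with
    | zero => intro _; have := hf 23 (by omega); simpa using (by omega : f 23 ≤ 23)
    | succ n ih =>
      intro hn
      have h1 := ih (by omega)
      have h2 := hs (23 - (n + 1)) (by omega)
      have : 23 - (n + 1) + 1 = 23 - n := by omega
      rw [this] at h2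
      omega
  intro u hu
  have h1 := lo u hu
  have h2 := hi (23 - u) (by omega)
  have : 23 - (23 - u) = u := by omega
  rw [this] at h2
  omega

lemma lab_top (f : ℕ → ℕ) (u : ℕ) (hu : u < 26)
    (h : ∀ v < 24, Hn (f u) v = Hn u v) : f u = u := by
  obtain ⟨v, hv, e⟩ := Hn_one u hu
  have : f u < 26 := Hn_lt_left ((h v hv).trans e)
  exact Hn_dist24 _ this _ hu h

/-- rigidity: a copy reads its labels in a single mode -/
lemma rigid (A : X → Y → Bool) (fx : X → Prop) (fy : Y → Prop) (hx : X → ℕ) (hy : Y → ℕ)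
    (lx : ℕ → X → ℕ) (ly : ℕ → Y → ℕ)
    (F1 : ∀ x y, fx x → A x y = Hn (lx (hx x) x) (ly (hx x) y))
    (F2 : ∀ x y, fy y → A x y = Hn (lx (hy y) x) (ly (hy y) y))
    (F3x : ∀ μ x, fx x → lx μ x < 26 → hx x = μ)
    (F3y : ∀ μ y, fy y → ly μ y < 26 → hy y = μ)
    (F4x : ∀ μ x, lx μ x < 24 → fx x) (F4y : ∀ μ y, ly μ y < 24 → fy y)
    (ρ : ℕ → X) (γ : ℕ → Y)
    (hmx : ∀ μ u u', u < u' → u' < 26 → lx μ (ρ u) < 24 → lx μ (ρ u') < 24 →
      lx μ (ρ u) ≤ lx μ (ρ u'))
    (hmy : ∀ μ u u', u < u' → u' < 26 → ly μ (γ u) < 24 → ly μ (γ u') < 24 →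
      ly μ (γ u) ≤ ly μ (γ u'))
    (hfx : ∀ u < 18, fx (ρ u)) (hfy : ∀ v < 18, fy (γ v))
    (hA : ∀ u < 26, ∀ v < 26, A (ρ u) (γ v) = Hn u v) :
    lx (hx (ρ 0)) (ρ 24) = 24 ∧ lx (hx (ρ 0)) (ρ 25) = 25 ∧
      ly (hx (ρ 0)) (γ 24) = 24 ∧ ly (hx (ρ 0)) (γ 25) = 25 := by
  set μ := hx (ρ 0) with hμ
  have hyμ : ∀ v < 18, hy (γ v) = μ := by
    intro v hv
    have e := hA 0 (by omega) v (by omega)
    rw [F1 _ _ (hfx 0 (by omega)), Hn_zero v (by omega)] at e
    exact F3y _ _ (hfy v hv) (Hn_lt_right e)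
  have hxμ : ∀ u < 18, hx (ρ u) = μ := by
    intro u hu
    have e := hA u (by omega) 0 (by omega)
    rw [F2 _ _ (hfy 0 (by omega)), hyμ 0 (by omega), Hn_symm u 0, Hn_zero u (by omega)] at e
    exact F3x _ _ (hfx u hu) (Hn_lt_left e)
  set f : ℕ → ℕ := fun u => lx μ (ρ u)
  set g : ℕ → ℕ := fun v => ly μ (γ v)
  have h18 : ∀ u < 26, ∀ v < 26, (u < 18 ∨ v < 18) → Hn (f u) (g v) = Hn u v := by
    intro u hu v hv h
    rw [← hA u hu v hv]
    rcases h with h | h
    · rw [F1 _ _ (hfx u h), hxμ u h]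
    · rw [F2 _ _ (hfy v h), hyμ v h]
  have hf := lab_lt24 f g h18
  have hg := lab_lt24 g f (fun u hu v hv h => by
    rw [Hn_symm, h18 v hv u hu h.symm, Hn_symm])
  have h24 : ∀ u < 26, ∀ v < 26, (u < 24 ∨ v < 24) → Hn (f u) (g v) = Hn u v := by
    intro u hu v hv h
    rw [← hA u hu v hv]
    rcases h with h | h
    · have h1 := F4x _ _ (hf u h)
      rw [F1 _ _ h1, F3x μ _ h1 (by have := hf u h; simp only [f] at this; omega)]
    · have h1 := F4y _ _ (hg v h)
      rw [F2 _ _ h1, F3y μ _ h1 (by have := hg v h; simp only [g] at this; omega)]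
  have fid := lab_id f g hf (fun u u' h1 h2 => hmx μ u u' h1 (by omega) (hf u (by omega)) (hf u' h2))
    (fun u hu v hv => h24 u (by omega) v (by omega) (Or.inl hu))
  have gid := lab_id g f hg (fun u u' h1 h2 => hmy μ u u' h1 (by omega) (hg u (by omega)) (hg u' h2))
    (fun u hu v hv => by rw [Hn_symm, h24 v (by omega) u (by omega) (Or.inl hv), Hn_symm])
  have ftop : ∀ u < 26, f u = u := fun u hu => lab_top f u hu (fun v hv => by
    rw [← h24 u hu v (by omega) (Or.inr hv), gid v hv])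
  have gtop : ∀ u < 26, g u = u := fun u hu => lab_top g u hu (fun v hv => by
    rw [Hn_symm u v, ← h24 v (by omega) u hu (Or.inl hv), fid v hv, Hn_symm])
  exact ⟨ftop 24 (by omega), ftop 25 (by omega), gtop 24 (by omega), gtop 25 (by omega)⟩

end rigid

end Vale.Agent.P037
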