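import Vale.Agent.P037.Pattern

/-!
The chain of staircases and the labels of rows and columns.
-/

namespace Vale.Agent.P037

open scoped Classical

def nd (h i s : ℕ) : ℕ := s / 2 ^ (h - i)

lemma nd_mono (h i : ℕ) {s s' : ℕ} (hs : s ≤ s') : nd h i s ≤ nd h i s' :=
  Nat.div_le_div_right hs

lemma nd_succ {h i : ℕ} (hi : i < h) (s : ℕ) : nd h i s = nd h (i + 1) s / 2 := by
  unfold nd
  rw [Nat.div_div_eq_div_mul, ← pow_succ]
  congr 2
  omega

lemma nd_zero {h s : ℕ} (hs : s < 2 ^ h) : nd h 0 s = 0 := by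
  unfold nd
  exact Nat.div_eq_of_lt (by simpa using hs)

lemma nd_self (h s : ℕ) : nd h h s = s := by simp [nd]

lemma nd_compl {h i s : ℕ} (hi : i ≤ h) (hs : s < 2 ^ h) :
    nd h i (2 ^ h - 1 - s) + nd h i s + 1 = 2 ^ i := by
  unfold nd
  have h2 : 2 ^ h = 2 ^ i * 2 ^ (h - i) := by rw [← pow_add]; congr 1; omega
  have hD : 0 < 2 ^ (h - i) := by positivity
  rw [h2] at hs ⊢
  generalize 2 ^ (h - i) = D at *
  generalize 2 ^ i = N at *
  have hq : s / D < N := (Nat.div_lt_iff_lt_mul hD).mpr hs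
  have h3 := Nat.div_add_mod s D
  have h4 := Nat.mod_lt s hD
  obtain ⟨c, rfl⟩ : ∃ c, N = s / D + 1 + c := ⟨N - (s / D + 1), by omega⟩
  have h5 : ((s / D + 1 + c) * D - 1 - s) / D = c := by
    have e : (s / D + 1 + c) * D = D * (s / D) + D + c * D := by ring
    rw [e]
    apply Nat.div_eq_of_lt_le
    · omega
    · have : (c + 1) * D = c * D + D := by ring
      omega
  omega

def Z (h j s t : ℕ) : Prop :=
  if j ≤ h then 2 ^ j ≤ nd h j s + nd h j t + 1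
  else 2 ^ (2 * h + 1 - j) ≤ nd h (2 * h + 1 - j) s + nd h (2 * h + 1 - j) t

def cond (h j s : ℕ) : Prop :=
  if j < h then nd h (j + 1) s % 2 = 1
  else if j = h then True else nd h (2 * h + 1 - j) s % 2 = 0

lemma Z_mono {h j s s' t t' : ℕ} (hs : s ≤ s') (ht : t ≤ t') (hz : Z h j s t) : Z h j s' t' := by
  unfold Z at *
  split_ifs at *
  · have := nd_mono h j hs; have := nd_mono h j ht; omega
  · have := nd_mono h (2 * h + 1 - j) hs; have := nd_mono h (2 * h + 1 - j) ht; omega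

lemma Z_zero (h s t : ℕ) : Z h 0 s t := by simp [Z]

lemma Z_last {h s t : ℕ} (hs : s < 2 ^ h) (ht : t < 2 ^ h) : ¬ Z h (2 * h + 1) s t := by
  unfold Z
  rw [if_neg (by omega)]
  simp [nd_zero hs, nd_zero ht]

lemma Z_step {h j s t : ℕ} (hj : j ≠ h) (hj2 : j ≤ 2 * h) (hz : Z h j s t)
    (hc : cond h j s ∨ cond h j t) : Z h (j + 1) s t := by
  unfold Z cond at *
  by_cases h1 : j < h
  · rw [if_pos h1.le] at hz
    rw [if_pos h1, if_pos h1] at hc
    rw [if_pos (by omega)]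
    rw [nd_succ h1, nd_succ h1] at hz
    rw [pow_succ]
    omega
  · rw [if_neg (by omega)] at hz
    rw [if_neg h1, if_neg h1, if_neg hj, if_neg hj] at hc
    rw [if_neg (by omega)]
    have e : 2 * h + 1 - j = (2 * h + 1 - (j + 1)) + 1 := by omega
    rw [e] at hz hc
    rw [nd_succ (by omega), nd_succ (by omega) t]
    rw [pow_succ] at hz
    omega

lemma Z_mid {h s t t' : ℕ} (ht : t ≤ t') (h1 : Z h h s t) (h2 : ¬ Z h (h + 1) s t') :
    s + t' + 1 = 2 ^ h := by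
  unfold Z at *
  rw [if_pos le_rfl] at h1
  rw [if_neg (by omega)] at h2
  have e : 2 * h + 1 - (h + 1) = h := by omega
  rw [e] at h2
  simp only [nd_self] at h1 h2
  omega

lemma cond_compl {h j s : ℕ} (hj : j ≤ 2 * h) (hs : s < 2 ^ h) :
    cond h j s ∨ cond h j (2 ^ h - 1 - s) := by
  unfold cond
  split_ifs with h1 h2
  · have := nd_compl (i := j + 1) h1 hs
    rw [pow_succ] at this
    omega
  · left; trivial
  · have := nd_compl (i := 2 * h + 1 - j) (by omega) hs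
    have e : 2 * h + 1 - j = (2 * h - j) + 1 := by omega
    rw [e] at this ⊢
    rw [pow_succ] at this
    omega

def FF (h : ℕ) : ℕ := 50 * (2 * h + 1)

noncomputable def labR (h μ g s : ℕ) : ℕ :=
  if g < FF h then
    (if g / 25 = μ ∧ (g % 25 = 24 → μ / 2 % 2 = 0) then g % 25 else 26)
  else if μ / 2 % 2 = 1 ∧ g = FF h + μ / 2 / 2 ∧ (μ % 2 = 0 → h < μ / 2 → cond h (μ / 2) s) then 24
  else if g = FF h + (μ / 2 + 1) / 2 ∧
    (μ % 2 = 0 → (μ / 2 % 2 = 0 ∨ μ / 2 < h) → cond h (μ / 2) s) then 25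
  else 26

noncomputable def labC (h μ g t : ℕ) : ℕ :=
  if g < FF h then
    (if g / 25 = μ ∧ (g % 25 = 24 → μ / 2 % 2 = 1) then g % 25 else 26)
  else if μ / 2 % 2 = 0 ∧ g = FF h + μ / 2 / 2 ∧ (μ % 2 = 1 → h < μ / 2 → cond h (μ / 2) t) then 24
  else if g = FF h + μ / 2 / 2 + 1 ∧
    (μ % 2 = 1 → (μ / 2 % 2 = 1 ∨ μ / 2 < h) → cond h (μ / 2) t) then 25
  else 26

lemma labR_fix {h μ g s : ℕ} (hg : g < FF h) (hl : labR h μ g s < 26) :
    g / 25 = μ ∧ labR h μ g s = g % 25 ∧ (g % 25 = 24 → μ / 2 % 2 = 0) := by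
  unfold labR at *
  rw [if_pos hg] at hl ⊢
  split_ifs at hl ⊢ with h1
  · exact ⟨h1.1, rfl, h1.2⟩
  · omega

lemma labC_fix {h μ g s : ℕ} (hg : g < FF h) (hl : labC h μ g s < 26) :
    g / 25 = μ ∧ labC h μ g s = g % 25 ∧ (g % 25 = 24 → μ / 2 % 2 = 1) := by
  unfold labC at *
  rw [if_pos hg] at hl ⊢
  split_ifs at hl ⊢ with h1
  · exact ⟨h1.1, rfl, h1.2⟩
  · omega

lemma labR_var {h μ g s : ℕ} (hg : ¬ g < FF h) (hl : labR h μ g s < 26) :
    (labR h μ g s = 24 ∧ μ / 2 % 2 = 1 ∧ g = FF h + μ / 2 / 2 ∧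
      (μ % 2 = 0 → h < μ / 2 → cond h (μ / 2) s)) ∨
    (labR h μ g s = 25 ∧ g = FF h + (μ / 2 + 1) / 2 ∧
      (μ % 2 = 0 → (μ / 2 % 2 = 0 ∨ μ / 2 < h) → cond h (μ / 2) s)) := by
  unfold labR at *
  rw [if_neg hg] at hl ⊢
  split_ifs at hl ⊢ with h1 h2
  · exact Or.inl ⟨rfl, h1⟩
  · exact Or.inr ⟨rfl, h2⟩
  · omega

lemma labC_var {h μ g s : ℕ} (hg : ¬ g < FF h) (hl : labC h μ g s < 26) :
    (labC h μ g s = 24 ∧ μ / 2 % 2 = 0 ∧ g = FF h + μ / 2 / 2 ∧
      (μ % 2 = 1 → h < μ / 2 → cond h (μ / 2) s)) ∨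
    (labC h μ g s = 25 ∧ g = FF h + μ / 2 / 2 + 1 ∧
      (μ % 2 = 1 → (μ / 2 % 2 = 1 ∨ μ / 2 < h) → cond h (μ / 2) s)) := by
  unfold labC at *
  rw [if_neg hg] at hl ⊢
  split_ifs at hl ⊢ with h1 h2
  · exact Or.inl ⟨rfl, h1⟩
  · exact Or.inr ⟨rfl, h2⟩
  · omega

lemma labR_indep {h μ g : ℕ} (hg : g < FF h) (s s' : ℕ) : labR h μ g s = labR h μ g s' := by
  unfold labR; rw [if_pos hg, if_pos hg]

lemma labC_indep {h μ g : ℕ} (hg : g < FF h) (s s' : ℕ) : labC h μ g s = labC h μ g s' := by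
  unfold labC; rw [if_pos hg, if_pos hg]

/-- the host matrix on (group, position) pairs -/
noncomputable def ent (h g s g' t : ℕ) : Bool :=
  if g < FF h then Hn (labR h (g / 25) g s) (labC h (g / 25) g' t)
  else if g' < FF h then Hn (labR h (g' / 25) g s) (labC h (g' / 25) g' t)
  else decide (g ≤ FF h + h ∧ ((g' = g ∧ Z h (2 * (g - FF h)) s t) ∨
    (g' = g + 1 ∧ Z h (2 * (g - FF h) + 1) s t)))

lemma ent_fixR {h g : ℕ} (hg : g < FF h) (s g' t : ℕ) :
    ent h g s g' t = Hn (labR h (g / 25) g s) (labC h (g / 25) g' t) := by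
  unfold ent; rw [if_pos hg]

lemma ent_fixC {h g' : ℕ} (hg' : g' < FF h) (g s t : ℕ) :
    ent h g s g' t = Hn (labR h (g' / 25) g s) (labC h (g' / 25) g' t) := by
  unfold ent
  by_cases hg : g < FF h
  · rw [if_pos hg]
    by_cases e : g / 25 = g' / 25
    · rw [e]
    · have h1 : Hn (labR h (g / 25) g s) (labC h (g / 25) g' t) = false := by
        by_contra hc
        have := labC_fix hg' (Hn_lt_right (by simpa using hc))
        omega
      have h2 : Hn (labR h (g' / 25) g s) (labC h (g' / 25) g' t) = false := by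
        by_contra hc
        have := labR_fix hg (Hn_lt_left (by simpa using hc))
        omega
      rw [h1, h2]
  · rw [if_neg hg, if_pos hg']

lemma ent_var {h g g' : ℕ} (hg : ¬ g < FF h) (hg' : ¬ g' < FF h) (s t : ℕ) :
    ent h g s g' t = true ↔ (g ≤ FF h + h ∧ ((g' = g ∧ Z h (2 * (g - FF h)) s t) ∨
      (g' = g + 1 ∧ Z h (2 * (g - FF h) + 1) s t))) := by
  unfold ent; rw [if_neg hg, if_neg hg']; simp

lemma ent_monoC {h g s g' t t' : ℕ} (hg : ¬ g < FF h) (ht : t ≤ t')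
    (he : ent h g s g' t = true) : ent h g s g' t' = true := by
  by_cases hg' : g' < FF h
  · rw [ent_fixC hg'] at he ⊢
    rwa [labC_indep hg' t' t]
  · rw [ent_var hg hg'] at he ⊢
    rcases he with ⟨h1, ⟨h2, h3⟩ | ⟨h2, h3⟩⟩
    · exact ⟨h1, Or.inl ⟨h2, Z_mono le_rfl ht h3⟩⟩
    · exact ⟨h1, Or.inr ⟨h2, Z_mono le_rfl ht h3⟩⟩

lemma ent_monoR {h g s s' g' t : ℕ} (hg' : ¬ g' < FF h) (hs : s ≤ s')
    (he : ent h g s g' t = true) : ent h g s' g' t = true := by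
  by_cases hg : g < FF h
  · rw [ent_fixR hg] at he ⊢
    rwa [labR_indep hg s' s]
  · rw [ent_var hg hg'] at he ⊢
    rcases he with ⟨h1, ⟨h2, h3⟩ | ⟨h2, h3⟩⟩
    · exact ⟨h1, Or.inl ⟨h2, Z_mono hs le_rfl h3⟩⟩
    · exact ⟨h1, Or.inr ⟨h2, Z_mono hs le_rfl h3⟩⟩

def color (h g : ℕ) : ℕ :=
  if g < FF h then g / 50 % 3 * 4 + g / 25 % 2 * 2 + (if g % 25 = 24 then 1 else 0)
  else 12 + g % 2

lemma color_lt (h g : ℕ) : color h g < 14 := by
  unfold color; split_ifs <;> omega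

lemma one_row {h g s g' t : ℕ} (hg : ¬ g < FF h) (hg' : g' < FF h) (e : ent h g s g' t = true) :
    2 * (g - FF h) ≤ g' / 50 + 1 ∧ g' / 50 ≤ 2 * (g - FF h) + 1 ∧
    ((labR h (g' / 25) g s = 24 ∧ g' % 25 = 0) ∨
     (labR h (g' / 25) g s = 25 ∧ (g' % 25 = 1 ∨ g' % 25 = 24))) := by
  rw [ent_fixC hg'] at e
  have h1 := labR_var hg (Hn_lt_left e)
  have h2 := labC_fix hg' (Hn_lt_right e)
  rw [h2.2.1] at e
  rcases h1 with ⟨a, b, c, _⟩ | ⟨a, b, _⟩
  · rw [a] at e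
    have := Hn_24 _ (Hn_lt_right e) e
    omega
  · rw [a] at e
    have := Hn_25 _ (Hn_lt_right e) e
    omega

lemma one_col {h g s g' t : ℕ} (hg : g < FF h) (hg' : ¬ g' < FF h) (e : ent h g s g' t = true) :
    2 * (g' - FF h) ≤ g / 50 + 2 ∧ g / 50 ≤ 2 * (g' - FF h) ∧
    ((labC h (g / 25) g' t = 24 ∧ g % 25 = 0) ∨
     (labC h (g / 25) g' t = 25 ∧ (g % 25 = 1 ∨ g % 25 = 24))) := by
  rw [ent_fixR hg, Hn_symm] at e
  have h1 := labC_var hg' (Hn_lt_left e)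
  have h2 := labR_fix hg (Hn_lt_right e)
  rw [h2.2.1] at e
  rcases h1 with ⟨a, b, c, _⟩ | ⟨a, b, _⟩
  · rw [a] at e
    have := Hn_24 _ (Hn_lt_right e) e
    omega
  · rw [a] at e
    have := Hn_25 _ (Hn_lt_right e) e
    omega

lemma same_groupC {h g s g1 t1 g2 t2 : ℕ} (hg : ¬ g < FF h) (e1 : ent h g s g1 t1 = true)
    (e2 : ent h g s g2 t2 = true) (hc : color h g1 = color h g2) : g1 = g2 := by
  unfold color at hc
  by_cases h1 : g1 < FF h <;> by_cases h2 : g2 < FF h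
  · have a1 := one_row hg h1 e1
    have a2 := one_row hg h2 e2
    rw [if_pos h1, if_pos h2] at hc
    have e : g1 / 25 = g2 / 25 := by split_ifs at hc <;> omega
    rw [e] at a1
    split_ifs at hc <;> omega
  · rw [if_pos h1, if_neg h2] at hc; split_ifs at hc <;> omega
  · rw [if_neg h1, if_pos h2] at hc; split_ifs at hc <;> omega
  · rw [if_neg h1, if_neg h2] at hc
    rw [ent_var hg h1] at e1
    rw [ent_var hg h2] at e2
    omega

lemma same_groupR {h g t g1 s1 g2 s2 : ℕ} (hg : ¬ g < FF h) (e1 : ent h g1 s1 g t = true)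
    (e2 : ent h g2 s2 g t = true) (hc : color h g1 = color h g2) : g1 = g2 := by
  unfold color at hc
  by_cases h1 : g1 < FF h <;> by_cases h2 : g2 < FF h
  · have a1 := one_col h1 hg e1
    have a2 := one_col h2 hg e2
    rw [if_pos h1, if_pos h2] at hc
    have e : g1 / 25 = g2 / 25 := by split_ifs at hc <;> omega
    rw [e] at a1
    split_ifs at hc <;> omega
  · rw [if_pos h1, if_neg h2] at hc; split_ifs at hc <;> omega
  · rw [if_neg h1, if_pos h2] at hc; split_ifs at hc <;> omega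
  · rw [if_neg h1, if_neg h2] at hc
    rw [ent_var h1 hg] at e1
    rw [ent_var h2 hg] at e2
    omega

end Vale.Agent.P037
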